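import Vale.Agent.P021.Final

namespace Vale.Agent.Results.P021.PiExponentTwo

/-- The set of exponents `ν > 0` such that `0 < |x - p/q| < q^(-ν)` holds for infinitely many
pairs of coprime integers `p`, `q` with `q ≥ 2`. -/
def exponentSet (x : ℝ) : Set ℝ :=
  {ν : ℝ | 0 < ν ∧ {pq : ℤ × ℤ | IsCoprime pq.1 pq.2 ∧ 2 ≤ pq.2 ∧
    0 < |x - (pq.1 : ℝ) / (pq.2 : ℝ)| ∧
    |x - (pq.1 : ℝ) / (pq.2 : ℝ)| < (pq.2 : ℝ) ^ (-ν)}.Infinite}

/-- The irrationality exponent of pi is two. -/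
theorem result : IsGreatest (exponentSet Real.pi) 2 ∧ sSup (exponentSet Real.pi) = 2 := by
  have h : IsGreatest (exponentSet Real.pi) 2 := by
    refine ⟨⟨two_pos, Vale.Agent.P021.infinite_pairs_two⟩, fun ν hν => ?_⟩
    by_contra hlt
    exact hν.2 ((Vale.Agent.P021.finite_pairs (not_le.mp hlt)).subset
      fun x hx => ⟨hx.2.1, hx.2.2.2⟩)
  exact ⟨h, h.csSup_eq⟩

end Vale.Agent.Results.P021.PiExponentTwo
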